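import Vale.Agent.P043.Four

open Vale.Agent.P043 in
/-- The discrete periodic tiling conjecture fails in every dimension `d ≥ 4`. -/
theorem Vale.Agent.Results.P043.DiscreteFour.result (d : ℕ) (hd : 4 ≤ d) :
    ∃ F : Finset (Fin d → ℤ), F.Nonempty ∧ (∃ A, IsTiling A (F : Set (Fin d → ℤ))) ∧
      ∀ A, IsTiling A (F : Set (Fin d → ℤ)) → ¬ IsPeriodic A := by
  obtain ⟨F, hF⟩ := exists_aperTile d hd
  exact ⟨F, hF.nonempty, hF.1, fun A hA hp => hF.2 A hA hp.nper⟩
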