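import Vale.Agent.P043.Euclid
import Vale.Agent.P043.Three

open Vale.Agent.P043 in
/-- The periodic tiling conjecture fails in `ℤ^d` for every `d ≥ 3`, and in `ℝ^d` for every
`d ≥ 3`. -/
theorem Vale.Agent.Results.P043.Three.result :
    (∀ d : ℕ, 3 ≤ d → ∃ F : Finset (Fin d → ℤ), F.Nonempty ∧
      (∃ A, IsTiling A (F : Set (Fin d → ℤ))) ∧
      ∀ A, IsTiling A (F : Set (Fin d → ℤ)) → ¬ IsPeriodic A) ∧
    (∀ d : ℕ, 3 ≤ d → ∃ Ω : Set (Fin d → ℝ), Bornology.IsBounded Ω ∧ MeasurableSet Ω ∧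
      0 < MeasureTheory.volume Ω ∧ (∃ A, IsMeasTiling A Ω) ∧
      ∀ A, IsMeasTiling A Ω → ¬ IsLatticePeriodic A) := by
  refine ⟨fun d hd => ?_, fun d hd => exists_euclid d (exists_aperTile_three d hd)⟩
  obtain ⟨F, hF⟩ := exists_aperTile_three d hd
  exact ⟨F, hF.nonempty, hF.1, fun A hA hp => hF.2 A hA hp.nper⟩
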